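import Vale.Agent.Lib.P208.Main
import Vale.Agent.Lib.P208.Linear

/-!
# P208 (Lang-Plaut): equivalence with the uniform forms, and the failure of linear maps

(1) The Lang-Plaut statement (every doubling subset of `ℓ₂` embeds bi-Lipschitzly into some
`ℝ^k`) is equivalent to each of: the uniform form (`k` and the distortion `D` depend only on the
doubling constant); the uniform form for finite subsets only; the statement restricted to
compact countable doubling subsets.
(2) There is a compact countable subset of `ℓ₂`, doubling with constant `2`, on which no linear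
map from `ℓ₂` to any `ℝ^k` is bi-Lipschitz.

This is the conjunction of the statements of the hand-ins `UniformEquivalence` and
`NoLinearReduction`.
-/

namespace Vale.Agent.Results.P208.EquivalenceAndLinearObstruction

open Vale.Agent.Lib.P208

theorem result :
    ((LangPlaut ↔ LangPlautUniform) ∧ (LangPlaut ↔ LangPlautFiniteUniform) ∧
      (LangPlaut ↔ LangPlautCompactCountable)) ∧
    ∃ X : Set L2, IsCompact X ∧ X.Countable ∧ DoublingWith X 2 ∧
      ∀ (k : ℕ) (T : L2 →ₗ[ℝ] EuclideanSpace ℝ (Fin k)) (a D : ℝ), 0 < a →
        ¬ ∀ x ∈ X, ∀ y ∈ X,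
          a * dist x y ≤ dist (T x) (T y) ∧ dist (T x) (T y) ≤ D * a * dist x y := by
  obtain ⟨e, he⟩ := exists_unit_l2
  have h1 : LangPlaut → LangPlautCompactCountable := fun h X _ _ hX => h X hX
  exact ⟨⟨⟨fun h => finite_to_uniform (compact_to_finite e he (h1 h)), uniform_to_all⟩,
    ⟨fun h => compact_to_finite e he (h1 h), fun h => uniform_to_all (finite_to_uniform h)⟩,
    ⟨h1, fun h => uniform_to_all (finite_to_uniform (compact_to_finite e he h))⟩⟩,
    exists_no_linear⟩

end Vale.Agent.Results.P208.EquivalenceAndLinearObstruction
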