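import Vale.Agent.Lib.P208.Linear

/-!
# P208 (Lang-Plaut): linear maps cannot give bi-Lipschitz dimension reduction

There is a compact countable subset of `ℓ₂`, doubling with constant `2`, on which no linear map
from `ℓ₂` to any `ℝ^k` is bi-Lipschitz.
-/

namespace Vale.Agent.Results.P208.NoLinearReduction

open Vale.Agent.Lib.P208

theorem result : ∃ X : Set L2, IsCompact X ∧ X.Countable ∧ DoublingWith X 2 ∧
    ∀ (k : ℕ) (T : L2 →ₗ[ℝ] EuclideanSpace ℝ (Fin k)) (a D : ℝ), 0 < a →
      ¬ ∀ x ∈ X, ∀ y ∈ X,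
        a * dist x y ≤ dist (T x) (T y) ∧ dist (T x) (T y) ≤ D * a * dist x y :=
  exists_no_linear

end Vale.Agent.Results.P208.NoLinearReduction
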