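import Vale.Agent.Lib.P208.Main

/-!
# P208 (Lang-Plaut): the qualitative problem is equivalent to its uniform forms

The Lang-Plaut statement (every doubling subset of `ℓ₂` embeds bi-Lipschitzly into some `ℝ^k`)
is equivalent to each of:
* the uniform form: `k` and the distortion `D` depend only on the doubling constant;
* the uniform form for finite subsets only;
* the statement restricted to compact countable doubling subsets.
-/

namespace Vale.Agent.Results.P208.UniformEquivalence

open Vale.Agent.Lib.P208

theorem result :
    (LangPlaut ↔ LangPlautUniform) ∧ (LangPlaut ↔ LangPlautFiniteUniform) ∧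
      (LangPlaut ↔ LangPlautCompactCountable) := by
  obtain ⟨e, he⟩ := exists_unit_l2
  have h1 : LangPlaut → LangPlautCompactCountable := fun h X _ _ hX => h X hX
  refine ⟨⟨fun h => finite_to_uniform (compact_to_finite e he (h1 h)), uniform_to_all⟩,
    ⟨fun h => compact_to_finite e he (h1 h), fun h => uniform_to_all (finite_to_uniform h)⟩,
    ⟨h1, fun h => uniform_to_all (finite_to_uniform (compact_to_finite e he h))⟩⟩

end Vale.Agent.Results.P208.UniformEquivalence
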